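import Mathlib.LinearAlgebra.BilinearMap
import Mathlib.Data.Real.Basic
import Mathlib.Algebra.Module.BigOperators
import Mathlib.Algebra.Algebra.Basic
import Mathlib.Algebra.Module.LinearMap.End
import Mathlib.Tactic

/-!
# P088, local step: the operators of the weight `W = φ(p) + E(p) F(q)`

`A i`, `B i` are the derivatives `∂_{q_i}`, `∂_{p_i}` on the module `V`, `a i`, `b i` the same
derivatives on the algebra `M` of functions, `m` is multiplication.
`D = ∂_q + E u`, `S = D^*`, `K = ∂_p + k`, `T = K^*`, `u = ∇F`, `k = φ' + 2 l' E F`, `E' = 2 l' E`.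
-/

set_option linter.unusedSectionVars false
set_option linter.dupNamespace false

noncomputable section

namespace Vale.Agent.P088.R2.H676.B

open Finset

/-- Functions and derivatives. -/
structure Wa (ι V M : Type) [AddCommGroup V] [Module ℝ V] [CommRing M] [Algebra ℝ M] where
  ip : V →ₗ[ℝ] V →ₗ[ℝ] ℝ
  m : M →ₐ[ℝ] Module.End ℝ V
  A : ι → Module.End ℝ V
  B : ι → Module.End ℝ V
  a : ι → M →ₗ[ℝ] M
  b : ι → M →ₗ[ℝ] M
  symm : ∀ x y, ip x y = ip y x
  adm : ∀ g x y, ip (m g x) y = ip x (m g y)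
  adA : ∀ i x y, ip (A i x) y = - ip x (A i y)
  adB : ∀ i x y, ip (B i x) y = - ip x (B i y)
  Am : ∀ i g, A i * m g = m g * A i + m (a i g)
  Bm : ∀ i g, B i * m g = m g * B i + m (b i g)
  AA : ∀ i j, A i * A j = A j * A i
  BA : ∀ i j, B i * A j = A j * B i
  BB : ∀ i j, B i * B j = B j * B i
  am : ∀ i g h, a i (g * h) = a i g * h + g * a i h
  bm : ∀ i g h, b i (g * h) = b i g * h + g * b i h
  aa : ∀ i j g, a i (a j g) = a j (a i g)
  ba : ∀ i j g, b i (a j g) = a j (b i g)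
  bb : ∀ i j g, b i (b j g) = b j (b i g)
  F : M
  l : M
  φ : M
  e : M
  e' : M
  aφ : ∀ i, a i φ = 0
  al : ∀ i, a i l = 0
  ae : ∀ i, a i e = 0
  bF : ∀ i, b i F = 0
  be : ∀ i, b i e = 2 * b i l * e
  inv : e * e' = 1

namespace Wa

variable {ι V M : Type} [Fintype ι] [AddCommGroup V] [Module ℝ V] [CommRing M] [Algebra ℝ M]
variable (W : Wa ι V M)

/-! ## Functions -/

/-- `u = ∇F` -/
def u (i : ι) : M := W.a i W.F
/-- `H = F''` -/
def H (i j : ι) : M := W.a i (W.u j)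
/-- `l'` -/
def l1 (i : ι) : M := W.b i W.l
/-- `l''` -/
def l2 (i j : ι) : M := W.b i (W.l1 j)
/-- `φ'` -/
def φ1 (i : ι) : M := W.b i W.φ
/-- `φ''` -/
def φ2 (i j : ι) : M := W.b i (W.φ1 j)
/-- `k = W_p` -/
def k (i : ι) : M := W.φ1 i + 2 * W.l1 i * W.e * W.F
/-- `[K_i, K_j^*]` -/
def Mx (i j : ι) : M := 2 * W.φ2 i j + 4 * W.l2 i j * W.e * W.F +
  8 * W.l1 i * W.l1 j * W.e * W.F

theorem a1 (i : ι) : W.a i 1 = 0 := by
  have := W.am i 1 1
  simpa using this

theorem b1 (i : ι) : W.b i 1 = 0 := by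
  have := W.bm i 1 1
  simpa using this

theorem a_nat (i : ι) (r : ℕ) : W.a i (r : M) = 0 := by
  have : (r : M) = (r : ℝ) • (1 : M) := by
    rw [Algebra.smul_def, mul_one]; simp
  rw [this, map_smul, W.a1, smul_zero]

theorem b_nat (i : ι) (r : ℕ) : W.b i (r : M) = 0 := by
  have : (r : M) = (r : ℝ) • (1 : M) := by
    rw [Algebra.smul_def, mul_one]; simp
  rw [this, map_smul, W.b1, smul_zero]

theorem a_two (i : ι) : W.a i (2 : M) = 0 := by simpa using W.a_nat i 2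
theorem b_two (i : ι) : W.b i (2 : M) = 0 := by simpa using W.b_nat i 2
theorem a_four (i : ι) : W.a i (4 : M) = 0 := by simpa using W.a_nat i 4
theorem b_four (i : ι) : W.b i (4 : M) = 0 := by simpa using W.b_nat i 4
theorem a_eight (i : ι) : W.a i (8 : M) = 0 := by simpa using W.a_nat i 8
theorem b_eight (i : ι) : W.b i (8 : M) = 0 := by simpa using W.b_nat i 8

theorem ae' (i : ι) : W.a i W.e' = 0 := by
  have h0 : W.a i (W.e * W.e') = 0 := by rw [W.inv, W.a1]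
  rw [W.am, W.ae, zero_mul, zero_add] at h0
  have : W.a i W.e' = W.e' * (W.e * W.a i W.e') := by
    rw [← mul_assoc, mul_comm W.e', W.inv, one_mul]
  rw [this, h0, mul_zero]

theorem al1 (i j : ι) : W.a i (W.l1 j) = 0 := by
  rw [l1, ← W.ba, W.al, map_zero]

theorem al2 (i j k : ι) : W.a i (W.l2 j k) = 0 := by
  rw [l2, ← W.ba, W.al1, map_zero]

theorem aφ1 (i j : ι) : W.a i (W.φ1 j) = 0 := by
  rw [φ1, ← W.ba, W.aφ, map_zero]

theorem aφ2 (i j k : ι) : W.a i (W.φ2 j k) = 0 := by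
  rw [φ2, ← W.ba, W.aφ1, map_zero]

theorem bu (i j : ι) : W.b i (W.u j) = 0 := by
  rw [u, W.ba, W.bF, map_zero]

theorem bH (i j k : ι) : W.b i (W.H j k) = 0 := by
  rw [H, W.ba, W.bu, map_zero]

theorem au (i j : ι) : W.a i (W.u j) = W.H i j := rfl

theorem H_comm (i j : ι) : W.H i j = W.H j i := by
  rw [H, u, W.aa]; rfl

theorem l2_comm (i j : ι) : W.l2 i j = W.l2 j i := by
  rw [l2, l1, W.bb]; rfl

theorem φ2_comm (i j : ι) : W.φ2 i j = W.φ2 j i := by
  rw [φ2, φ1, W.bb]; rfl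

theorem be1 (i : ι) : W.b i W.e = 2 * W.l1 i * W.e := W.be i

theorem aeu (i j : ι) : W.a i (W.e * W.u j) = W.e * W.H i j := by
  rw [W.am, W.ae, zero_mul, zero_add]; rfl

theorem beu (i j : ι) : W.b i (W.e * W.u j) = 2 * W.l1 i * W.e * W.u j := by
  rw [W.bm, W.be1, W.bu, mul_zero, add_zero]

theorem ak (i j : ι) : W.a i (W.k j) = 2 * W.l1 j * W.e * W.u i := by
  rw [k, map_add, W.aφ1, W.am, W.am, W.am, W.a_two, W.al1, W.ae, u]; ring

theorem bl1 (i j : ι) : W.b i (W.l1 j) = W.l2 i j := rfl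

theorem bk (i j : ι) : W.b i (W.k j) = W.φ2 i j + 2 * W.l2 i j * W.e * W.F +
    4 * W.l1 i * W.l1 j * W.e * W.F := by
  rw [k, map_add, W.bm, W.bm, W.bm, W.b_two, W.bl1, W.be1, W.bF, φ2]; ring

/-! ## Operators -/

/-- `D_i` -/
def D (i : ι) : Module.End ℝ V := W.A i + W.m (W.e * W.u i)
/-- `D_i^*` -/
def S (i : ι) : Module.End ℝ V := W.m (W.e * W.u i) - W.A i
/-- `K_i` -/
def K (i : ι) : Module.End ℝ V := W.B i + W.m (W.k i)
/-- `K_i^*` -/
def T (i : ι) : Module.End ℝ V := W.m (W.k i) - W.B i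

theorem mc (g h : M) : W.m g * W.m h = W.m h * W.m g := by
  rw [← map_mul, ← map_mul, mul_comm]

theorem Dm (i : ι) (g : M) : W.D i * W.m g = W.m g * W.D i + W.m (W.a i g) := by
  rw [D, add_mul, mul_add, W.Am, W.mc]; abel

theorem Sm (i : ι) (g : M) : W.S i * W.m g = W.m g * W.S i - W.m (W.a i g) := by
  rw [S, sub_mul, mul_sub, W.Am, W.mc]; abel

theorem Km (i : ι) (g : M) : W.K i * W.m g = W.m g * W.K i + W.m (W.b i g) := by
  rw [K, add_mul, mul_add, W.Bm, W.mc]; abel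

theorem Tm (i : ι) (g : M) : W.T i * W.m g = W.m g * W.T i - W.m (W.b i g) := by
  rw [T, sub_mul, mul_sub, W.Bm, W.mc]; abel

theorem D_add_S (i : ι) : W.D i + W.S i = W.m (2 * (W.e * W.u i)) := by
  rw [D, S, two_mul, map_add]; abel

theorem D_eq (i : ι) : W.D i = W.m (2 * (W.e * W.u i)) - W.S i := by
  rw [← W.D_add_S]; abel

theorem S_eq (i : ι) : W.S i = W.m (2 * (W.e * W.u i)) - W.D i := by
  rw [← W.D_add_S]; abel

theorem D_sub_S (i : ι) : W.D i - W.S i = (2 : ℝ) • W.A i := by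
  rw [D, S, two_smul]; abel

theorem DD (i j : ι) : W.D i * W.D j = W.D j * W.D i := by
  simp only [D, add_mul, mul_add]
  rw [W.Am, W.Am, W.aeu, W.aeu, W.H_comm j i, W.AA i j, W.mc (W.e * W.u i)]; abel

theorem SS (i j : ι) : W.S i * W.S j = W.S j * W.S i := by
  simp only [S, sub_mul, mul_sub]
  rw [W.Am, W.Am, W.aeu, W.aeu, W.H_comm j i, W.AA i j, W.mc (W.e * W.u i)]; abel

theorem two_m (g : M) : W.m (2 * g) = W.m g + W.m g := by rw [two_mul, map_add]

theorem DS (i j : ι) : W.D i * W.S j = W.S j * W.D i + W.m (2 * (W.e * W.H i j)) := by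
  simp only [D, S, add_mul, mul_add, sub_mul, mul_sub]
  rw [W.Am, W.Am, W.aeu, W.aeu, W.H_comm j i, W.AA i j, W.mc (W.e * W.u i) (W.e * W.u j), W.two_m]
  abel

theorem KD (i j : ι) : W.K i * W.D j = W.D j * W.K i := by
  simp only [D, K, add_mul, mul_add]
  rw [W.Bm, W.Am, W.beu, W.ak, W.BA i j, W.mc (W.k i)]; abel

theorem TS (i j : ι) : W.T i * W.S j = W.S j * W.T i := by
  simp only [S, T, sub_mul, mul_sub]
  rw [W.Bm, W.Am, W.beu, W.ak, W.BA i j, W.mc (W.k i)]; abel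

theorem KS (i j : ι) : W.K i * W.S j = W.S j * W.K i + W.m (4 * W.l1 i * W.e * W.u j) := by
  simp only [S, K, add_mul, mul_add, sub_mul, mul_sub]
  have h4 : 4 * W.l1 i * W.e * W.u j = 2 * (2 * W.l1 i * W.e * W.u j) := by ring
  rw [W.Bm, W.Am, W.beu, W.ak, W.BA i j, W.mc (W.k i), h4, W.two_m]; abel

theorem DT (i j : ι) : W.D i * W.T j = W.T j * W.D i + W.m (4 * W.l1 j * W.e * W.u i) := by
  simp only [D, T, add_mul, mul_add, sub_mul, mul_sub]
  have h4 : 4 * W.l1 j * W.e * W.u i = 2 * (2 * W.l1 j * W.e * W.u i) := by ring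
  rw [W.Bm, W.Am, W.beu, W.ak, W.BA j i, W.mc (W.k j), h4, W.two_m]; abel

theorem KK (i j : ι) : W.K i * W.K j = W.K j * W.K i := by
  simp only [K, add_mul, mul_add]
  rw [W.Bm, W.Bm, W.bk, W.bk, W.BB i j, W.mc (W.k i), W.φ2_comm j i, W.l2_comm j i,
    show 4 * W.l1 j * W.l1 i * W.e * W.F = 4 * W.l1 i * W.l1 j * W.e * W.F by ring]; abel

theorem TT (i j : ι) : W.T i * W.T j = W.T j * W.T i := by
  simp only [T, sub_mul, mul_sub]
  rw [W.Bm, W.Bm, W.bk, W.bk, W.BB i j, W.mc (W.k i), W.φ2_comm j i, W.l2_comm j i,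
    show 4 * W.l1 j * W.l1 i * W.e * W.F = 4 * W.l1 i * W.l1 j * W.e * W.F by ring]; abel

theorem KT (i j : ι) : W.K i * W.T j = W.T j * W.K i + W.m (W.Mx i j) := by
  simp only [K, T, add_mul, mul_add, sub_mul, mul_sub]
  have h4 : W.Mx i j = 2 * (W.φ2 i j + 2 * W.l2 i j * W.e * W.F +
      4 * W.l1 i * W.l1 j * W.e * W.F) := by rw [Mx]; ring
  rw [W.Bm, W.Bm, W.bk, W.bk, W.BB i j, W.mc (W.k i) (W.k j), h4, W.two_m, W.φ2_comm j i,
    W.l2_comm j i, show 4 * W.l1 j * W.l1 i * W.e * W.F = 4 * W.l1 i * W.l1 j * W.e * W.F by ring]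
  abel

/-! ## Adjoints -/

theorem adm' (g : M) (x y : V) : W.ip x (W.m g y) = W.ip (W.m g x) y := (W.adm g x y).symm

theorem adD (i : ι) (x y : V) : W.ip (W.D i x) y = W.ip x (W.S i y) := by
  simp only [D, S, LinearMap.add_apply, LinearMap.sub_apply, map_add, map_sub, W.adA, W.adm]
  ring

theorem adS (i : ι) (x y : V) : W.ip (W.S i x) y = W.ip x (W.D i y) := by
  rw [W.symm, ← W.adD, W.symm]

theorem adK (i : ι) (x y : V) : W.ip (W.K i x) y = W.ip x (W.T i y) := by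
  simp only [K, T, LinearMap.add_apply, LinearMap.sub_apply, map_add, map_sub, W.adB, W.adm]
  ring

theorem adT (i : ι) (x y : V) : W.ip (W.T i x) y = W.ip x (W.K i y) := by
  rw [W.symm, ← W.adK, W.symm]

end Wa

end Vale.Agent.P088.R2.H676.B
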