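import Vale.Agent.P088.R2.H676.B.Alg

/-!
# P088, local step: forms `⟨g X x, Y x⟩`
-/

set_option linter.unusedSectionVars false
set_option linter.dupNamespace false

noncomputable section

namespace Vale.Agent.P088.R2.H676.B

open Finset

namespace Wa

variable {ι V M : Type} [Fintype ι] [AddCommGroup V] [Module ℝ V] [CommRing M] [Algebra ℝ M]
variable (W : Wa ι V M)

/-- `∫ g x²` -/
def I (x : V) : M →ₗ[ℝ] ℝ where
  toFun g := W.ip (W.m g x) x
  map_add' g h := by simp [LinearMap.add_apply]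
  map_smul' c g := by simp [LinearMap.smul_apply]

theorem I_def (x : V) (g : M) : W.I x g = W.ip (W.m g x) x := rfl

theorem I_two (x : V) (g : M) : W.I x (2 * g) = 2 * W.I x g := by
  rw [two_mul, map_add]; ring

theorem I_nat (x : V) (r : ℕ) (g : M) : W.I x ((r : M) * g) = r * W.I x g := by
  have : (r : M) * g = (r : ℝ) • g := by
    rw [Algebra.smul_def]; simp
  rw [this, map_smul, smul_eq_mul]

theorem mm (g h : M) (x : V) : W.m g (W.m h x) = W.m (g * h) x := by
  rw [map_mul]; rfl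

theorem m_nat (r : ℕ) (g : M) (x : V) : W.m ((r : M) * g) x = (r : ℝ) • W.m g x := by
  have : (r : M) * g = (r : ℝ) • g := by
    rw [Algebra.smul_def]; simp
  rw [this, map_smul]; rfl

theorem m_two (g : M) (x : V) : W.m (2 * g) x = (2 : ℝ) • W.m g x := by
  simpa using W.m_nat 2 g x

theorem m_four (g : M) (x : V) : W.m (4 * g) x = (4 : ℝ) • W.m g x := by
  simpa using W.m_nat 4 g x

theorem ip_m (g h : M) (x y : V) : W.ip (W.m g x) (W.m h y) = W.ip (W.m (g * h) x) y := by
  rw [W.adm', W.mm, mul_comm]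

/-- moving a function -/
theorem ip_mr (g : M) (x y : V) : W.ip x (W.m g y) = W.ip (W.m g x) y := (W.adm g x y).symm

theorem Ax (i : ι) (g : M) (x : V) : W.A i (W.m g x) = W.m g (W.A i x) + W.m (W.a i g) x := by
  have := LinearMap.congr_fun (W.Am i g) x
  simpa [Module.End.mul_apply, LinearMap.add_apply] using this

theorem Bx (i : ι) (g : M) (x : V) : W.B i (W.m g x) = W.m g (W.B i x) + W.m (W.b i g) x := by
  have := LinearMap.congr_fun (W.Bm i g) x
  simpa [Module.End.mul_apply, LinearMap.add_apply] using this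

theorem Dx (i : ι) (g : M) (x : V) : W.D i (W.m g x) = W.m g (W.D i x) + W.m (W.a i g) x := by
  have := LinearMap.congr_fun (W.Dm i g) x
  simpa [Module.End.mul_apply, LinearMap.add_apply] using this

theorem Sx (i : ι) (g : M) (x : V) : W.S i (W.m g x) = W.m g (W.S i x) - W.m (W.a i g) x := by
  have := LinearMap.congr_fun (W.Sm i g) x
  simpa [Module.End.mul_apply, LinearMap.sub_apply] using this

theorem Kx (i : ι) (g : M) (x : V) : W.K i (W.m g x) = W.m g (W.K i x) + W.m (W.b i g) x := by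
  have := LinearMap.congr_fun (W.Km i g) x
  simpa [Module.End.mul_apply, LinearMap.add_apply] using this

theorem Tx (i : ι) (g : M) (x : V) : W.T i (W.m g x) = W.m g (W.T i x) - W.m (W.b i g) x := by
  have := LinearMap.congr_fun (W.Tm i g) x
  simpa [Module.End.mul_apply, LinearMap.sub_apply] using this

theorem DSx (i j : ι) (x : V) : W.D i (W.S j x) = W.S j (W.D i x) +
    W.m (2 * (W.e * W.H i j)) x := by
  have := LinearMap.congr_fun (W.DS i j) x
  simpa only [Module.End.mul_apply, LinearMap.add_apply] using this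

theorem KSx (i j : ι) (x : V) : W.K i (W.S j x) = W.S j (W.K i x) +
    W.m (4 * W.l1 i * W.e * W.u j) x := by
  have := LinearMap.congr_fun (W.KS i j) x
  simpa only [Module.End.mul_apply, LinearMap.add_apply] using this

theorem DTx (i j : ι) (x : V) : W.D i (W.T j x) = W.T j (W.D i x) +
    W.m (4 * W.l1 j * W.e * W.u i) x := by
  have := LinearMap.congr_fun (W.DT i j) x
  simpa only [Module.End.mul_apply, LinearMap.add_apply] using this

theorem KTx (i j : ι) (x : V) : W.K i (W.T j x) = W.T j (W.K i x) + W.m (W.Mx i j) x := by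
  have := LinearMap.congr_fun (W.KT i j) x
  simpa only [Module.End.mul_apply, LinearMap.add_apply] using this

theorem DDx (i j : ι) (x : V) : W.D i (W.D j x) = W.D j (W.D i x) := by
  have := LinearMap.congr_fun (W.DD i j) x
  simpa only [Module.End.mul_apply] using this

theorem SSx (i j : ι) (x : V) : W.S i (W.S j x) = W.S j (W.S i x) := by
  have := LinearMap.congr_fun (W.SS i j) x
  simpa only [Module.End.mul_apply] using this

theorem KDx (i j : ι) (x : V) : W.K i (W.D j x) = W.D j (W.K i x) := by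
  have := LinearMap.congr_fun (W.KD i j) x
  simpa only [Module.End.mul_apply] using this

theorem TSx (i j : ι) (x : V) : W.T i (W.S j x) = W.S j (W.T i x) := by
  have := LinearMap.congr_fun (W.TS i j) x
  simpa only [Module.End.mul_apply] using this

theorem Dap (i : ι) (x : V) : W.D i x = W.A i x + W.m (W.e * W.u i) x := rfl
theorem Sap (i : ι) (x : V) : W.S i x = W.m (W.e * W.u i) x - W.A i x := rfl
theorem Kap (i : ι) (x : V) : W.K i x = W.B i x + W.m (W.k i) x := rfl
theorem Tap (i : ι) (x : V) : W.T i x = W.m (W.k i) x - W.B i x := rfl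

theorem S_eqx (i : ι) (x : V) : W.S i x = W.m (2 * (W.e * W.u i)) x - W.D i x := by
  rw [W.S_eq]; rfl

theorem D_eqx (i : ι) (x : V) : W.D i x = W.m (2 * (W.e * W.u i)) x - W.S i x := by
  rw [W.D_eq]; rfl

/-! ## First order forms -/

theorem fA (g : M) (i : ι) (x : V) : W.ip (W.m g (W.A i x)) x = - (1 / 2) * W.I x (W.a i g) := by
  have h : W.ip (W.m g (W.A i x)) x = - W.ip (W.m g (W.A i x)) x - W.I x (W.a i g) := by
    conv_lhs => rw [W.adm, W.adA, W.Ax, map_add, W.symm x, W.symm x]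
    rw [I_def]; ring
  linarith

theorem fB (g : M) (i : ι) (x : V) : W.ip (W.m g (W.B i x)) x = - (1 / 2) * W.I x (W.b i g) := by
  have h : W.ip (W.m g (W.B i x)) x = - W.ip (W.m g (W.B i x)) x - W.I x (W.b i g) := by
    conv_lhs => rw [W.adm, W.adB, W.Bx, map_add, W.symm x, W.symm x]
    rw [I_def]; ring
  linarith

theorem fD (g : M) (i : ι) (x : V) : W.ip (W.m g (W.D i x)) x =
    W.I x (g * (W.e * W.u i)) - (1 / 2) * W.I x (W.a i g) := by
  rw [Dap, map_add, map_add, LinearMap.add_apply, W.fA, W.mm]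
  simp only [I_def]; ring

theorem fS (g : M) (i : ι) (x : V) : W.ip (W.m g (W.S i x)) x =
    W.I x (g * (W.e * W.u i)) + (1 / 2) * W.I x (W.a i g) := by
  rw [Sap, map_sub, map_sub, LinearMap.sub_apply, W.fA, W.mm]
  simp only [I_def]; ring

theorem fK (g : M) (i : ι) (x : V) : W.ip (W.m g (W.K i x)) x =
    W.I x (g * W.k i) - (1 / 2) * W.I x (W.b i g) := by
  rw [Kap, map_add, map_add, LinearMap.add_apply, W.fB, W.mm]
  simp only [I_def]; ring

theorem fT (g : M) (i : ι) (x : V) : W.ip (W.m g (W.T i x)) x =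
    W.I x (g * W.k i) + (1 / 2) * W.I x (W.b i g) := by
  rw [Tap, map_sub, map_sub, LinearMap.sub_apply, W.fB, W.mm]
  simp only [I_def]; ring

/-! ## Swaps -/

theorem swD (g : M) (i j : ι) (x : V) : W.ip (W.m g (W.S j x)) (W.S i x) =
    W.ip (W.m g (W.D j x)) (W.D i x) + W.I x (W.a i (g * (W.e * W.u j))) +
      W.I x (W.a j (g * (W.e * W.u i))) := by
  have h1 : W.ip (W.m g (W.A j x)) (W.m (W.e * W.u i) x) =
      - (1 / 2) * W.I x (W.a j (g * (W.e * W.u i))) := by
    rw [W.ip_mr, W.mm, mul_comm, W.fA]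
  have h2 : W.ip (W.m g (W.m (W.e * W.u j) x)) (W.A i x) =
      - (1 / 2) * W.I x (W.a i (g * (W.e * W.u j))) := by
    rw [W.mm, W.adm, W.symm, W.fA]
  rw [Dap, Dap, Sap, Sap]
  simp only [map_add, map_sub, LinearMap.add_apply, LinearMap.sub_apply, h1, h2]
  ring

theorem swK (g : M) (i j : ι) (x : V) : W.ip (W.m g (W.T j x)) (W.T i x) =
    W.ip (W.m g (W.K j x)) (W.K i x) + W.I x (W.b i (g * W.k j)) +
      W.I x (W.b j (g * W.k i)) := by
  have h1 : W.ip (W.m g (W.B j x)) (W.m (W.k i) x) =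
      - (1 / 2) * W.I x (W.b j (g * W.k i)) := by
    rw [W.ip_mr, W.mm, mul_comm, W.fB]
  have h2 : W.ip (W.m g (W.m (W.k j) x)) (W.B i x) =
      - (1 / 2) * W.I x (W.b i (g * W.k j)) := by
    rw [W.mm, W.adm, W.symm, W.fB]
  rw [Kap, Kap, Tap, Tap]
  simp only [map_add, map_sub, LinearMap.add_apply, LinearMap.sub_apply, h1, h2]
  ring

/-- `⟨g x, D_i D_i x⟩` -/
theorem fDD (g : M) (i : ι) (x : V) : W.ip (W.m g x) (W.D i (W.D i x)) =
    - W.ip (W.m g (W.D i x)) (W.D i x) + (2 * W.I x (g * (W.e * W.u i) * (W.e * W.u i)) -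
      2 * W.I x (W.a i g * (W.e * W.u i)) - W.I x (g * (W.e * W.H i i)) +
      (1 / 2) * W.I x (W.a i (W.a i g))) := by
  rw [← W.adS, W.Sx, W.S_eqx]
  have h1 : ∀ h : M, W.ip (W.m h x) (W.D i x) = W.I x (h * (W.e * W.u i)) -
      (1 / 2) * W.I x (W.a i h) := fun h => by rw [W.adm, W.symm, W.fD]
  simp only [map_sub, LinearMap.sub_apply, W.mm, h1]
  have e1 : W.a i (g * (2 * (W.e * W.u i))) = 2 * (W.a i g * (W.e * W.u i)) +
      2 * (g * (W.e * W.H i i)) := by
    rw [W.am, W.am, W.a_two, W.aeu]; ring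
  have e2 : g * (2 * (W.e * W.u i)) * (W.e * W.u i) = 2 * (g * (W.e * W.u i) * (W.e * W.u i)) := by
    ring
  rw [e1, e2, map_add, W.I_two, W.I_two, W.I_two]
  ring

end Wa

end Vale.Agent.P088.R2.H676.B
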