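import Vale.Agent.P088.R2.H676.B.Frm

/-!
# P088, local step: second order operators
-/

set_option linter.unusedSectionVars false
set_option linter.dupNamespace false

noncomputable section

namespace Vale.Agent.P088.R2.H676.B

open Finset

namespace Wa

variable {ι V M : Type} [Fintype ι] [AddCommGroup V] [Module ℝ V] [CommRing M] [Algebra ℝ M]
variable (W : Wa ι V M)

/-! ## Functions -/

/-- `|l'|²` -/
def L : M := ∑ i, W.l1 i * W.l1 i
/-- `H l'` -/
def h (i : ι) : M := ∑ j, W.H i j * W.l1 j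
/-- `l' . H l'` -/
def lh : M := ∑ i, W.l1 i * W.h i
/-- `l' . u` -/
def lu : M := ∑ i, W.l1 i * W.u i
/-- `|u|²` -/
def uu : M := ∑ i, W.u i * W.u i
/-- `tr H` -/
def tH : M := ∑ i, W.H i i
/-- `∇ ΔF` -/
def f (i : ι) : M := W.a i W.tH
/-- `l' . f` -/
def lf : M := ∑ i, W.l1 i * W.f i
/-- `|H|²` -/
def HH : M := ∑ i, ∑ j, W.H i j * W.H i j
/-- `f . u` -/
def fu : M := ∑ i, W.f i * W.u i
/-- `Δ² F` -/
def Lp : M := ∑ i, W.a i (W.f i)
/-- `u . H l'` -/
def uh : M := ∑ i, W.u i * W.h i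
/-- `|H l'|²` -/
def hh : M := ∑ i, W.h i * W.h i
/-- derivative in the direction `l'` -/
def nl (g : M) : M := ∑ i, W.l1 i * W.a i g

theorem al1m (i j : ι) (g : M) : W.a i (W.l1 j * g) = W.l1 j * W.a i g := by
  rw [W.am, W.al1, zero_mul, zero_add]

theorem aem (i : ι) (g : M) : W.a i (W.e * g) = W.e * W.a i g := by
  rw [W.am, W.ae, zero_mul, zero_add]

theorem a2m (i : ι) (g : M) : W.a i (2 * g) = 2 * W.a i g := by
  rw [W.am, W.a_two, zero_mul, zero_add]

theorem a4m (i : ι) (g : M) : W.a i (4 * g) = 4 * W.a i g := by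
  rw [W.am, W.a_four, zero_mul, zero_add]

theorem aH (i j k : ι) : W.a i (W.H j k) = W.a j (W.H i k) := by
  rw [H, H, W.aa]

theorem f_eq (j : ι) : W.f j = ∑ i, W.a i (W.H i j) := by
  rw [f, tH, map_sum]
  exact sum_congr rfl fun i _ => by rw [W.aH, W.H_comm]

theorem a_lu (i : ι) : W.a i W.lu = W.h i := by
  rw [lu, h, map_sum]
  exact sum_congr rfl fun j _ => by rw [W.al1m, W.au]; ring

theorem a_h (i j : ι) : W.a i (W.h j) = ∑ k, W.a i (W.H j k) * W.l1 k := by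
  rw [h, map_sum]
  exact sum_congr rfl fun k _ => by rw [W.am, W.al1]; ring

theorem div_h : ∑ i, W.a i (W.h i) = W.lf := by
  simp only [a_h]
  rw [sum_comm, lf]
  refine sum_congr rfl fun k _ => ?_
  rw [f_eq, mul_sum]
  exact sum_congr rfl fun i _ => by ring

theorem nl_h (i : ι) : W.nl (W.h i) = W.a i W.lh := by
  rw [nl, lh, map_sum]
  refine sum_congr rfl fun j _ => ?_
  rw [W.al1m, a_h, a_h]
  congr 1
  exact sum_congr rfl fun k _ => by rw [W.aH]

theorem a_nl (i : ι) (g : M) : W.a i (W.nl g) = W.nl (W.a i g) := by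
  rw [nl, nl, map_sum]
  exact sum_congr rfl fun j _ => by rw [W.al1m, W.aa]

theorem lap_lh : ∑ i, W.a i (W.a i W.lh) = W.nl W.lf := by
  have h1 : ∀ i, W.a i (W.a i W.lh) = W.nl (W.a i (W.h i)) := fun i => by
    rw [← W.nl_h, W.a_nl]
  simp only [h1]
  rw [← W.div_h]
  simp only [nl, map_sum, mul_sum]
  rw [sum_comm]

theorem nl_lu : W.nl W.lu = W.lh := by
  rw [nl, lh]
  exact sum_congr rfl fun i _ => by rw [a_lu]

theorem nl_mul (g h : M) : W.nl (g * h) = W.nl g * h + g * W.nl h := by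
  rw [nl, nl, nl, sum_mul, mul_sum, ← sum_add_distrib]
  exact sum_congr rfl fun i _ => by rw [W.am]; ring

/-! ## Operators -/

/-- `D²` -/
def dd : Module.End ℝ V := ∑ i, W.D i * W.D i
/-- `D^{*2}` -/
def ss : Module.End ℝ V := ∑ i, W.S i * W.S i
/-- `l' . D` -/
def la : Module.End ℝ V := ∑ i, W.m (W.l1 i) * W.D i
/-- `l' . D^*` -/
def ls : Module.End ℝ V := ∑ i, W.m (W.l1 i) * W.S i
/-- `D . K` -/
def R : Module.End ℝ V := ∑ i, W.D i * W.K i
/-- `D^* . K^*` -/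
def Rs : Module.End ℝ V := ∑ i, W.S i * W.T i

theorem dd_ap (x : V) : W.dd x = ∑ i, W.D i (W.D i x) := by
  simp [dd, LinearMap.sum_apply, Module.End.mul_apply]
theorem ss_ap (x : V) : W.ss x = ∑ i, W.S i (W.S i x) := by
  simp [ss, LinearMap.sum_apply, Module.End.mul_apply]
theorem la_ap (x : V) : W.la x = ∑ i, W.m (W.l1 i) (W.D i x) := by
  simp [la, LinearMap.sum_apply, Module.End.mul_apply]
theorem ls_ap (x : V) : W.ls x = ∑ i, W.m (W.l1 i) (W.S i x) := by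
  simp [ls, LinearMap.sum_apply, Module.End.mul_apply]
theorem R_ap (x : V) : W.R x = ∑ i, W.D i (W.K i x) := by
  simp [R, LinearMap.sum_apply, Module.End.mul_apply]
theorem Rs_ap (x : V) : W.Rs x = ∑ i, W.S i (W.T i x) := by
  simp [Rs, LinearMap.sum_apply, Module.End.mul_apply]

theorem add2 (x y : V) : W.ip (W.dd x) y = W.ip x (W.ss y) := by
  rw [dd_ap, ss_ap, map_sum, map_sum, LinearMap.sum_apply]
  exact sum_congr rfl fun i _ => by rw [W.adD, W.adD]

theorem ads2 (x y : V) : W.ip (W.ss x) y = W.ip x (W.dd y) := by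
  rw [W.symm, ← W.add2, W.symm]

theorem Dl (i j : ι) (x : V) : W.D i (W.m (W.l1 j) x) = W.m (W.l1 j) (W.D i x) := by
  rw [W.Dx, W.al1, map_zero, LinearMap.zero_apply, add_zero]

theorem Sl (i j : ι) (x : V) : W.S i (W.m (W.l1 j) x) = W.m (W.l1 j) (W.S i x) := by
  rw [W.Sx, W.al1, map_zero, LinearMap.zero_apply, sub_zero]

theorem adla (x y : V) : W.ip (W.la x) y = W.ip x (W.ls y) := by
  rw [la_ap, ls_ap, map_sum, map_sum, LinearMap.sum_apply]
  exact sum_congr rfl fun i _ => by rw [← W.Dl, W.adD, W.adm, ← W.Sl]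

theorem adls (x y : V) : W.ip (W.ls x) y = W.ip x (W.la y) := by
  rw [W.symm, ← W.adla, W.symm]

theorem adR (x y : V) : W.ip (W.R x) y = W.ip x (W.Rs y) := by
  rw [R_ap, Rs_ap, map_sum, map_sum, LinearMap.sum_apply]
  exact sum_congr rfl fun i _ => by rw [W.adD, W.adK, W.TSx]

theorem adRs (x y : V) : W.ip (W.Rs x) y = W.ip x (W.R y) := by
  rw [W.symm, ← W.adR, W.symm]

/-- basic functions -/
def Bas (g : M) : Prop := ∀ i, W.a i g = 0

theorem bas_l1 (j : ι) : W.Bas (W.l1 j) := fun i => W.al1 i j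
theorem bas_l2 (j k : ι) : W.Bas (W.l2 j k) := fun i => W.al2 i j k
theorem bas_e : W.Bas W.e := W.ae
theorem bas_e' : W.Bas W.e' := W.ae'
theorem Bas.mul {W : Wa ι V M} {g h : M} (hg : W.Bas g) (hh : W.Bas h) : W.Bas (g * h) :=
  fun i => by rw [W.am, hg, hh]; ring
theorem Bas.sum {W : Wa ι V M} {κ : Type} {s : Finset κ} {g : κ → M} (hg : ∀ i ∈ s, W.Bas (g i)) :
    W.Bas (∑ i ∈ s, g i) := fun i => by
  rw [map_sum]; exact sum_eq_zero fun k hk => hg k hk i
theorem bas_L : W.Bas W.L := Bas.sum fun i _ => (W.bas_l1 i).mul (W.bas_l1 i)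

section
variable {W} {g : M} (hg : W.Bas g)
include hg

theorem Bas.D (i : ι) (x : V) : W.D i (W.m g x) = W.m g (W.D i x) := by
  rw [W.Dx, hg, map_zero, LinearMap.zero_apply, add_zero]
theorem Bas.S (i : ι) (x : V) : W.S i (W.m g x) = W.m g (W.S i x) := by
  rw [W.Sx, hg, map_zero, LinearMap.zero_apply, sub_zero]
theorem Bas.A (i : ι) (x : V) : W.A i (W.m g x) = W.m g (W.A i x) := by
  rw [W.Ax, hg, map_zero, LinearMap.zero_apply, add_zero]
theorem Bas.dd (x : V) : W.dd (W.m g x) = W.m g (W.dd x) := by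
  rw [dd_ap, dd_ap, map_sum]
  exact sum_congr rfl fun i _ => by rw [hg.D, hg.D]
theorem Bas.ss (x : V) : W.ss (W.m g x) = W.m g (W.ss x) := by
  rw [ss_ap, ss_ap, map_sum]
  exact sum_congr rfl fun i _ => by rw [hg.S, hg.S]
theorem Bas.la (x : V) : W.la (W.m g x) = W.m g (W.la x) := by
  rw [la_ap, la_ap, map_sum]
  exact sum_congr rfl fun i _ => by rw [hg.D, W.mm, W.mm, mul_comm]
theorem Bas.ls (x : V) : W.ls (W.m g x) = W.m g (W.ls x) := by
  rw [ls_ap, ls_ap, map_sum]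
  exact sum_congr rfl fun i _ => by rw [hg.S, W.mm, W.mm, mul_comm]

end

/-! ## Commutators -/

theorem la_m (g : M) (x : V) : W.la (W.m g x) = W.m g (W.la x) + W.m (W.nl g) x := by
  rw [la_ap, la_ap, map_sum, nl, map_sum, LinearMap.sum_apply, ← sum_add_distrib]
  exact sum_congr rfl fun i _ => by rw [W.Dx, map_add, W.mm, W.mm, W.mm, mul_comm g]

theorem ls_m (g : M) (x : V) : W.ls (W.m g x) = W.m g (W.ls x) - W.m (W.nl g) x := by
  rw [ls_ap, ls_ap, map_sum, nl, map_sum, LinearMap.sum_apply, ← sum_sub_distrib]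
  exact sum_congr rfl fun i _ => by rw [W.Sx, map_sub, W.mm, W.mm, W.mm, mul_comm g]

theorem la_add_ls (x : V) : W.la x + W.ls x = W.m (2 * (W.e * W.lu)) x := by
  rw [la_ap, ls_ap, ← sum_add_distrib, lu, mul_sum, mul_sum, map_sum, LinearMap.sum_apply]
  refine sum_congr rfl fun i _ => ?_
  rw [← map_add, W.S_eqx, add_sub_cancel, W.mm]
  congr 2; ring

theorem D_la (j : ι) (x : V) : W.D j (W.la x) = W.la (W.D j x) := by
  rw [la_ap, la_ap, map_sum]
  exact sum_congr rfl fun i _ => by rw [W.Dl, W.DDx]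

theorem S_ls (j : ι) (x : V) : W.S j (W.ls x) = W.ls (W.S j x) := by
  rw [ls_ap, ls_ap, map_sum]
  exact sum_congr rfl fun i _ => by rw [W.Sl, W.SSx]

theorem D_ls (j : ι) (x : V) : W.D j (W.ls x) = W.ls (W.D j x) + W.m (2 * (W.e * W.h j)) x := by
  rw [ls_ap, ls_ap, map_sum, h, mul_sum, mul_sum, map_sum, LinearMap.sum_apply,
    ← sum_add_distrib]
  refine sum_congr rfl fun i _ => ?_
  rw [W.Dl, W.DSx, map_add, W.mm]
  congr 3; ring

theorem la_S (j : ι) (x : V) : W.la (W.S j x) = W.S j (W.la x) + W.m (2 * (W.e * W.h j)) x := by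
  rw [la_ap, la_ap, map_sum, h, mul_sum, mul_sum, map_sum, LinearMap.sum_apply,
    ← sum_add_distrib]
  refine sum_congr rfl fun i _ => ?_
  rw [W.Sl, W.DSx, map_add, W.mm, W.H_comm]
  congr 3; ring

theorem la_ls (x : V) : W.la (W.ls x) = W.ls (W.la x) + W.m (2 * (W.e * W.lh)) x := by
  rw [ls_ap, map_sum, ls_ap, lh, mul_sum, mul_sum, map_sum, LinearMap.sum_apply,
    ← sum_add_distrib]
  refine sum_congr rfl fun i _ => ?_
  rw [(W.bas_l1 i).la, W.la_S, map_add, W.mm]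
  congr 3; ring

theorem dd_S (j : ι) (x : V) : W.dd (W.S j x) = W.S j (W.dd x) +
    ∑ i, W.m (4 * (W.e * W.H i j)) (W.D i x) + W.m (2 * (W.e * W.f j)) x := by
  have h1 : ∀ i, W.D i (W.D i (W.S j x)) = W.S j (W.D i (W.D i x)) +
      W.m (4 * (W.e * W.H i j)) (W.D i x) + W.m (2 * (W.e * W.a i (W.H i j))) x := by
    intro i
    rw [W.DSx, map_add, W.DSx, W.Dx, W.a2m, W.aem,
      show 4 * (W.e * W.H i j) = 2 * (W.e * W.H i j) + 2 * (W.e * W.H i j) by ring, map_add,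
      LinearMap.add_apply]
    abel
  rw [dd_ap, dd_ap, sum_congr rfl fun i _ => h1 i, sum_add_distrib, sum_add_distrib, ← map_sum,
    ← LinearMap.sum_apply, ← map_sum, ← mul_sum, ← mul_sum, ← f_eq]

theorem D_ss (j : ι) (x : V) : W.D j (W.ss x) = W.ss (W.D j x) +
    ∑ i, W.m (4 * (W.e * W.H i j)) (W.S i x) - W.m (2 * (W.e * W.f j)) x := by
  have h1 : ∀ i, W.D j (W.S i (W.S i x)) = W.S i (W.S i (W.D j x)) +
      W.m (4 * (W.e * W.H i j)) (W.S i x) - W.m (2 * (W.e * W.a i (W.H i j))) x := by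
    intro i
    rw [W.DSx, W.DSx, map_add, W.Sx, W.a2m, W.aem, W.H_comm j i,
      show 4 * (W.e * W.H i j) = 2 * (W.e * W.H i j) + 2 * (W.e * W.H i j) by ring, map_add,
      LinearMap.add_apply]
    abel
  rw [ss_ap, map_sum, ss_ap, sum_congr rfl fun i _ => h1 i, sum_sub_distrib, sum_add_distrib,
    ← LinearMap.sum_apply, ← map_sum, ← mul_sum, ← mul_sum, ← f_eq]

theorem dd_ls (x : V) : W.dd (W.ls x) = W.ls (W.dd x) +
    ∑ i, W.m (4 * (W.e * W.h i)) (W.D i x) + W.m (2 * (W.e * W.lf)) x := by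
  rw [ls_ap, map_sum]
  have h1 : ∀ j, W.dd (W.m (W.l1 j) (W.S j x)) = W.m (W.l1 j) (W.S j (W.dd x)) +
      ∑ i, W.m (4 * (W.e * (W.H i j * W.l1 j))) (W.D i x) +
      W.m (2 * (W.e * (W.l1 j * W.f j))) x := by
    intro j
    rw [(W.bas_l1 j).dd, W.dd_S, map_add, map_add, map_sum, W.mm]
    congr 1
    · congr 1
      refine sum_congr rfl fun i _ => ?_
      rw [W.mm]; congr 2; ring
    · congr 2; ring
  rw [sum_congr rfl fun j _ => h1 j, sum_add_distrib, sum_add_distrib, ← ls_ap, sum_comm,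
    ← LinearMap.sum_apply, ← map_sum, ← mul_sum, ← mul_sum, ← lf]
  congr 2
  refine sum_congr rfl fun i _ => ?_
  rw [← LinearMap.sum_apply, ← map_sum, ← mul_sum, ← mul_sum, ← h]

theorem la_ss (x : V) : W.la (W.ss x) = W.ss (W.la x) +
    ∑ i, W.m (4 * (W.e * W.h i)) (W.S i x) - W.m (2 * (W.e * W.lf)) x := by
  rw [la_ap, la_ap, map_sum]
  have h1 : ∀ j, W.m (W.l1 j) (W.D j (W.ss x)) = W.ss (W.m (W.l1 j) (W.D j x)) +
      ∑ i, W.m (4 * (W.e * (W.H i j * W.l1 j))) (W.S i x) -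
      W.m (2 * (W.e * (W.l1 j * W.f j))) x := by
    intro j
    rw [(W.bas_l1 j).ss, W.D_ss, map_sub, map_add, map_sum, W.mm]
    congr 1
    · congr 1
      refine sum_congr rfl fun i _ => ?_
      rw [W.mm]; congr 2; ring
    · congr 2; ring
  have h2 : ∑ j, W.m (2 * (W.e * (W.l1 j * W.f j))) x = W.m (2 * (W.e * W.lf)) x := by
    rw [← LinearMap.sum_apply, ← map_sum, ← mul_sum, ← mul_sum, ← lf]
  rw [sum_congr rfl fun j _ => h1 j, sum_sub_distrib, sum_add_distrib, sum_comm, h2, ← map_sum]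
  congr 2
  refine sum_congr rfl fun i _ => ?_
  rw [← LinearMap.sum_apply, ← map_sum, ← mul_sum, ← mul_sum, ← h]

theorem K_ss (j : ι) (x : V) : W.K j (W.ss x) = W.ss (W.K j x) +
    ∑ i, W.m (8 * (W.l1 j * W.e * W.u i)) (W.S i x) - W.m (4 * (W.l1 j * W.e * W.tH)) x := by
  have h1 : ∀ i, W.K j (W.S i (W.S i x)) = W.S i (W.S i (W.K j x)) +
      W.m (8 * (W.l1 j * W.e * W.u i)) (W.S i x) - W.m (4 * (W.l1 j * W.e * W.H i i)) x := by
    intro i
    have e1 : W.a i (4 * W.l1 j * W.e * W.u i) = 4 * (W.l1 j * W.e * W.H i i) := by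
      rw [W.am, W.am, W.am, W.a_four, W.al1, W.ae, W.au]; ring
    rw [W.KSx, W.KSx, map_add, W.Sx, e1,
      show 8 * (W.l1 j * W.e * W.u i) = 4 * W.l1 j * W.e * W.u i + 4 * W.l1 j * W.e * W.u i by ring,
      map_add, LinearMap.add_apply]
    abel
  rw [ss_ap, map_sum, ss_ap, sum_congr rfl fun i _ => h1 i, sum_sub_distrib, sum_add_distrib,
    ← LinearMap.sum_apply, ← map_sum, ← mul_sum, ← mul_sum, ← tH]

end Wa

end Vale.Agent.P088.R2.H676.B
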